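import Mathlib

/-!
P254, block K5 (helper374): the algebraic lemma (AL0) (case `H = 0` of (AL)), with the harmonic
velocity `X_c = - (d_i d_j / (d_i + d_j)) (A_c)_ij`, from the spectral bound (K1) and the
tetrahedral inequality (K4).

Contents
* `sq_elim` : completion of the square which eliminates the fourth cumulants (any `D` of the form
  `diagonal d`, `0 ≤ d`, any symmetric velocity `X = D * G`);
* `AL0` : `V(R = 1) ≥ 0` for all (not necessarily totally symmetric) `C_ca`.
-/

namespace Vale.Agent.P254.H374

open Matrix Finset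

variable {n : ℕ}

abbrev M (n : ℕ) := Matrix (Fin n) (Fin n) ℝ

/-- `tr (M D M D) ≥ 0` for symmetric `M` and `D = diagonal d`, `d ≥ 0` -/
theorem trace_sq_nonneg {d : Fin n → ℝ} (hd : ∀ i, 0 ≤ d i) {C : M n} (hC : Cᵀ = C) :
    0 ≤ trace (C * diagonal d * (C * diagonal d)) := by
  have h : trace (C * diagonal d * (C * diagonal d)) = ∑ i, ∑ j, d i * d j * (C i j) ^ 2 := by
    unfold trace
    refine sum_congr rfl fun i _ => ?_
    rw [diag_apply, mul_apply]
    refine sum_congr rfl fun j _ => ?_
    have hji : C j i = C i j := by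
      have := congrFun (congrFun hC i) j
      simpa [transpose_apply] using this
    rw [mul_diagonal, mul_diagonal, hji]
    ring
  rw [h]
  exact sum_nonneg fun i _ => sum_nonneg fun j _ =>
    mul_nonneg (mul_nonneg (hd i) (hd j)) (sq_nonneg _)

/-- completion of the square: elimination of the free symmetric matrix `C` -/
theorem sq_elim {d : Fin n → ℝ} (hd : ∀ i, 0 ≤ d i) {A C X G : M n} (hA : Aᵀ = A) (hC : Cᵀ = C)
    (hX : Xᵀ = X) (hG : diagonal d * G = X) :
    -(2 * trace (A * X * (A * X)) + 2 * trace (G * (A * diagonal d * A) * X)) ≤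
      trace (C * diagonal d * (C * diagonal d)) + 4 * trace (C * diagonal d * (A * X)) := by
  set D : M n := diagonal d with hD
  have hDT : Dᵀ = D := by rw [hD, diagonal_transpose]
  have hGT : Gᵀ * D = X := by
    have := congrArg transpose hG
    rwa [transpose_mul, hDT, hX] at this
  set J : M n := A * Gᵀ + G * A with hJ
  have hJT : Jᵀ = J := by
    rw [hJ, transpose_add, transpose_mul, transpose_mul, transpose_transpose, hA, add_comm]
  have hCJ : (C + J)ᵀ = C + J := by rw [transpose_add, hC, hJT]
  have h0 := trace_sq_nonneg hd hCJ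
  rw [← hD] at h0
  -- expand
  have e1 : trace ((C + J) * D * ((C + J) * D)) =
      trace (C * D * (C * D)) + 2 * trace (C * D * (J * D)) + trace (J * D * (J * D)) := by
    have : trace (J * D * (C * D)) = trace (C * D * (J * D)) := trace_mul_comm _ _
    rw [Matrix.add_mul, Matrix.add_mul, Matrix.mul_add, Matrix.mul_add, trace_add, trace_add,
      trace_add, this]
    ring
  have e2 : trace (C * D * (J * D)) = 2 * trace (C * D * (A * X)) := by
    have a1 : C * D * (J * D) = C * D * (A * X) + C * X * (A * D) := by
      rw [hJ, Matrix.add_mul, Matrix.mul_add, Matrix.mul_assoc A Gᵀ D, hGT]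
      congr 1
      rw [← hG]
      simp only [Matrix.mul_assoc]
    have a2 : trace (C * X * (A * D)) = trace (C * D * (A * X)) := by
      have : (C * X * (A * D))ᵀ = D * A * (X * C) := by
        rw [transpose_mul, transpose_mul, transpose_mul, hDT, hA, hX, hC]
      rw [← trace_transpose, this, trace_mul_comm]
      have : X * C * (D * A) = X * (C * D * A) := by simp only [Matrix.mul_assoc]
      rw [this, trace_mul_comm]
      simp only [Matrix.mul_assoc]
    rw [a1, trace_add, a2]
    ring
  have e3 : trace (J * D * (J * D)) = 2 * trace (A * X * (A * X)) + 2 * trace (G * (A * D * A) * X)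
      := by
    have a1 : J * D = A * X + G * (A * D) := by
      rw [hJ, Matrix.add_mul, Matrix.mul_assoc A Gᵀ D, hGT, Matrix.mul_assoc]
    have b1 : trace (G * (A * D) * (A * X)) = trace (G * (A * D * A) * X) := by
      congr 1
      simp only [Matrix.mul_assoc]
    have b2 : trace (A * X * (G * (A * D))) = trace (G * (A * D * A) * X) := by
      rw [trace_mul_comm, b1]
    have b3 : trace (G * (A * D) * (G * (A * D))) = trace (A * X * (A * X)) := by
      have : G * (A * D) * (G * (A * D)) = G * (A * X * (A * D)) := by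
        rw [← hG]; simp only [Matrix.mul_assoc]
      rw [this, trace_mul_comm]
      have : A * X * (A * D) * G = A * X * (A * X) := by
        rw [← hG]; simp only [Matrix.mul_assoc]
      rw [this]
    rw [a1, Matrix.add_mul, Matrix.mul_add, Matrix.mul_add, trace_add, trace_add, trace_add, b1, b2,
      b3]
    ring
  rw [e1, e2, e3] at h0
  linarith

/-- harmonic weight -/
noncomputable def hm (a b : ℝ) : ℝ := a * b / (a + b)

theorem hm_comm (a b : ℝ) : hm a b = hm b a := by
  unfold hm; rw [mul_comm, add_comm]

/-- harmonic velocity `X = - hm(d_i, d_j) A_ij` -/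
noncomputable def vel (d : Fin n → ℝ) (A : M n) : M n :=
  Matrix.of fun i j => -(hm (d i) (d j) * A i j)

/-- `G = D⁻¹ X` -/
noncomputable def velG (d : Fin n → ℝ) (A : M n) : M n :=
  Matrix.of fun i j => -(d j / (d i + d j) * A i j)

theorem vel_symm (d : Fin n → ℝ) {A : M n} (hA : Aᵀ = A) : (vel d A)ᵀ = vel d A := by
  ext i j
  have hji : A j i = A i j := by simpa [transpose_apply] using congrFun (congrFun hA i) j
  simp only [vel, transpose_apply, of_apply, hji, hm_comm (d j) (d i)]

theorem diag_velG (d : Fin n → ℝ) (A : M n) : diagonal d * velG d A = vel d A := by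
  ext i j
  rw [diagonal_mul]
  simp only [velG, vel, of_apply, hm]
  ring

/-- pointwise identity behind the harmonic velocity -/
theorem hm_id {a b : ℝ} (ha : 0 ≤ a) (hb : 0 ≤ b) (x : ℝ) :
    2 * (hm a b * x) ^ 2 + (a * (b / (a + b) * x) * (a / (a + b) * x) * a
      + b * (a / (a + b) * x) * (b / (a + b) * x) * b) = a * b * x ^ 2 := by
  rcases eq_or_lt_of_le (add_nonneg ha hb) with h | h
  · have ha0 : a = 0 := by linarith
    have hb0 : b = 0 := by linarith
    subst ha0; subst hb0
    simp [hm]
  · have hne : a + b ≠ 0 := ne_of_gt h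
    unfold hm
    field_simp
    ring

/-- `∑_ij f i j = ½ ∑_ij (f i j + f j i)` -/
theorem sum_symm2 (f : Fin n → Fin n → ℝ) :
    2 * ∑ i, ∑ j, f i j = ∑ i, ∑ j, (f i j + f j i) := by
  have : ∑ i, ∑ j, f j i = ∑ i, ∑ j, f i j := sum_comm
  simp only [sum_add_distrib]
  rw [this]; ring

/-- evaluation of the quadratic form of the harmonic velocity -/
theorem vel_quad {d : Fin n → ℝ} (hd : ∀ i, 0 ≤ d i) {A : M n} (hA : Aᵀ = A) :
    2 * trace (vel d A * vel d A) + 2 * trace (velG d A * diagonal d * vel d A) =
      ∑ i, ∑ j, d i * d j * (A i j) ^ 2 := by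
  have hji : ∀ i j, A j i = A i j := fun i j => by
    simpa [transpose_apply] using congrFun (congrFun hA i) j
  have h1 : trace (vel d A * vel d A) = ∑ i, ∑ j, (hm (d i) (d j) * A i j) ^ 2 := by
    unfold trace
    refine sum_congr rfl fun i _ => ?_
    rw [diag_apply, mul_apply]
    refine sum_congr rfl fun j _ => ?_
    simp only [vel, of_apply, hji i j, hm_comm (d j) (d i)]
    ring
  have h2 : trace (velG d A * diagonal d * vel d A) =
      ∑ i, ∑ j, d j * (d i / (d j + d i) * A i j) * (d j / (d j + d i) * A i j) * d j := by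
    unfold trace
    refine sum_congr rfl fun i _ => ?_
    rw [diag_apply, mul_apply]
    refine sum_congr rfl fun j _ => ?_
    rw [mul_diagonal]
    simp only [velG, vel, of_apply, hji i j, hm]
    rw [add_comm (d i) (d j)]
    ring
  rw [h1, h2, sum_symm2 (fun i j =>
    d j * (d i / (d j + d i) * A i j) * (d j / (d j + d i) * A i j) * d j), mul_sum,
    ← sum_add_distrib]
  refine sum_congr rfl fun i _ => ?_
  rw [mul_sum, ← sum_add_distrib]
  refine sum_congr rfl fun j _ => ?_
  rw [← hm_id (hd i) (hd j) (A i j), hji i j, add_comm (d j) (d i)]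
  ring

/-- **(AL0)**.  `A` totally symmetric, `∑_a A_a D A_a = D`, spectral bound (K1) and tetrahedral
inequality (K4): for all symmetric `C_ca` the functional `V` with clock `R = 1` is nonnegative at
the harmonic velocity. -/
theorem AL0 (A : Fin n → M n) (h2 : ∀ a, (A a)ᵀ = A a)
    (d : Fin n → ℝ) (hd : ∀ i, 0 ≤ d i)
    (hfix : ∑ a, A a * diagonal d * A a = diagonal d)
    (hcp : ∀ X : M n, Xᵀ = X → ∑ a, trace (A a * X * (A a * X)) ≤ trace (X * X))
    (hK4 : ∑ e, ∑ i, ∑ j, (∑ a, ∑ b, A e a b * (A a * diagonal d * A b) i j) * A e i j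
      * (2 * hm (d i) (d j)) ≤ ∑ i, d i ^ 2)
    (C : Fin n → Fin n → M n) (hC : ∀ c a, (C c a)ᵀ = C c a) :
    0 ≤ ∑ c, (∑ a, trace (C c a * diagonal d * (C c a * diagonal d))
        + 4 * ∑ a, trace (C c a * diagonal d * (A a * vel d (A c)))
        + 4 * trace ((∑ a, ∑ b, A c a b • (A a * diagonal d * A b)) * vel d (A c))
        - 4 * trace ((A c * diagonal d + diagonal d * A c) * vel d (A c))
        - trace (vel d (A c) * vel d (A c))
        + ∑ a, trace (A a * vel d (A c) * (A a * vel d (A c))))
      - trace (diagonal d * diagonal d : M n) := by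
  set D : M n := diagonal d with hD
  have hji : ∀ c i j, A c j i = A c i j := fun c i j => by
    simpa [transpose_apply] using congrFun (congrFun (h2 c) i) j
  -- weighted norm of `A`
  have hN : ∑ c, ∑ i, ∑ j, d i * d j * (A c i j) ^ 2 = ∑ i, d i ^ 2 := by
    have e1 : trace ((∑ a, A a * D * A a) * D) = ∑ i, d i ^ 2 := by
      rw [hfix, hD, diagonal_mul_diagonal, trace_diagonal]
      exact sum_congr rfl fun i _ => by ring
    rw [← e1, Finset.sum_mul, trace_sum]
    refine sum_congr rfl fun c _ => ?_
    unfold trace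
    refine sum_congr rfl fun i _ => ?_
    rw [diag_apply, hD, mul_diagonal, mul_apply, Finset.sum_mul]
    refine sum_congr rfl fun j _ => ?_
    rw [mul_diagonal, hji c i j]
    ring
  have hDD : trace (D * D) = ∑ i, d i ^ 2 := by
    rw [hD, diagonal_mul_diagonal, trace_diagonal]
    exact sum_congr rfl fun i _ => by ring
  -- term by term lower bound
  have hc : ∀ c, -(∑ i, ∑ j, d i * d j * (A c i j) ^ 2)
        + 4 * trace ((∑ a, ∑ b, A c a b • (A a * D * A b)) * vel d (A c))
        + 4 * ∑ i, ∑ j, d i * d j * (A c i j) ^ 2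
      ≤ ∑ a, trace (C c a * D * (C c a * D))
        + 4 * ∑ a, trace (C c a * D * (A a * vel d (A c)))
        + 4 * trace ((∑ a, ∑ b, A c a b • (A a * D * A b)) * vel d (A c))
        - 4 * trace ((A c * D + D * A c) * vel d (A c))
        - trace (vel d (A c) * vel d (A c))
        + ∑ a, trace (A a * vel d (A c) * (A a * vel d (A c))) := by
    intro c
    set X : M n := vel d (A c) with hXdef
    set G : M n := velG d (A c) with hGdef
    have hX : Xᵀ = X := vel_symm d (h2 c)
    have hG : D * G = X := diag_velG d (A c)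
    have s1 : ∑ a, -(2 * trace (A a * X * (A a * X)) + 2 * trace (G * (A a * D * A a) * X)) ≤
        ∑ a, (trace (C c a * D * (C c a * D)) + 4 * trace (C c a * D * (A a * X))) :=
      sum_le_sum fun a _ => sq_elim hd (h2 a) (hC c a) hX hG
    have s2 : ∑ a, trace (G * (A a * D * A a) * X) = trace (G * D * X) := by
      rw [← trace_sum, ← Finset.sum_mul, ← Finset.mul_sum, hfix]
    have s3 := hcp X hX
    have s4 := vel_quad hd (h2 c)
    rw [← hD, ← hXdef, ← hGdef] at s4
    have s5 : trace ((A c * D + D * A c) * X) = -∑ i, ∑ j, d i * d j * (A c i j) ^ 2 := by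
      have : trace ((A c * D + D * A c) * X) =
          ∑ i, ∑ j, -((d i + d j) * hm (d i) (d j) * (A c i j) ^ 2) := by
        unfold trace
        refine sum_congr rfl fun i _ => ?_
        rw [diag_apply, mul_apply]
        refine sum_congr rfl fun j _ => ?_
        rw [Matrix.add_apply, hD, mul_diagonal, diagonal_mul, hXdef]
        simp only [vel, of_apply, hji c i j, hm_comm (d j) (d i)]
        ring
      rw [this, ← sum_neg_distrib]
      refine sum_congr rfl fun i _ => ?_
      rw [← sum_neg_distrib]
      refine sum_congr rfl fun j _ => ?_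
      congr 1
      have : (d i + d j) * hm (d i) (d j) = d i * d j := by
        unfold hm
        rcases eq_or_lt_of_le (add_nonneg (hd i) (hd j)) with h | h
        · have ha0 : d i = 0 := by linarith [hd i, hd j]
          have hb0 : d j = 0 := by linarith [hd i, hd j]
          rw [ha0, hb0]; simp
        · field_simp
      rw [this]
    simp only [sum_add_distrib, sum_neg_distrib, ← mul_sum] at s1
    rw [s2] at s1
    rw [s5]
    linarith
  have hsum := sum_le_sum fun c (_ : c ∈ univ) => hc c
  -- the tetrahedral term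
  have hK : ∑ c, trace ((∑ a, ∑ b, A c a b • (A a * D * A b)) * vel d (A c)) =
      -(1 / 2 * ∑ e, ∑ i, ∑ j, (∑ a, ∑ b, A e a b * (A a * D * A b) i j) * A e i j
        * (2 * hm (d i) (d j))) := by
    rw [mul_sum, ← sum_neg_distrib]
    refine sum_congr rfl fun c _ => ?_
    rw [mul_sum, ← sum_neg_distrib]
    unfold trace
    refine sum_congr rfl fun i _ => ?_
    rw [diag_apply, mul_apply, mul_sum, ← sum_neg_distrib]
    refine sum_congr rfl fun j _ => ?_
    have : (∑ a, ∑ b, A c a b • (A a * D * A b)) i j = ∑ a, ∑ b, A c a b * (A a * D * A b) i j := by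
      simp only [Matrix.sum_apply, Matrix.smul_apply, smul_eq_mul]
    rw [this]
    simp only [vel, of_apply, hji c i j, hm_comm (d j) (d i)]
    ring
  simp only [sum_add_distrib, sum_neg_distrib, ← mul_sum] at hsum
  rw [hN, hK] at hsum
  rw [hDD]
  have hK4' := hK4
  simp only [sum_add_distrib, sum_sub_distrib, ← mul_sum] at hsum ⊢
  rw [hK] at hsum ⊢
  linarith

end Vale.Agent.P254.H374
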