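import Vale.Agent.P254.H374.AL0
import Vale.Agent.P254.H660.CP
import Vale.Agent.P254.H46.K4

/-!
P254, block K5 (helper374), final form: (AL0) with only the spectral hypothesis
`∑ tr (A_a D' A_a D') ≤ tr (D' D')` for all `D' ≥ 0` and the Perron equation.
-/

namespace Vale.Agent.P254.H374

open Matrix Finset

variable {n : ℕ}

/-- **(AL0)**, final form. -/
theorem AL0' (A : Fin n → Fin n → Fin n → ℝ)
    (hA : (∀ i j k, A i j k = A j i k) ∧ (∀ i j k, A i j k = A i k j))
    (d : Fin n → ℝ) (hd : ∀ i, 0 ≤ d i)
    (hfix : ∑ a, (Matrix.of fun i j => A a i j) * diagonal d * (Matrix.of fun i j => A a i j)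
      = diagonal d)
    (hspec : ∀ Y : M n, Y.PosSemidef → ∑ a, ((Matrix.of fun i j => A a i j) * Y *
      (Matrix.of fun i j => A a i j) * Y).trace ≤ (Y * Y).trace)
    (C : Fin n → Fin n → M n) (hC : ∀ c a, (C c a)ᵀ = C c a) :
    ∃ X : Fin n → M n, (∀ c, (X c)ᵀ = X c) ∧
    0 ≤ ∑ c, (∑ a, trace (C c a * diagonal d * (C c a * diagonal d))
        + 4 * ∑ a, trace (C c a * diagonal d * ((Matrix.of fun i j => A a i j) * X c))
        + 4 * trace ((∑ a, ∑ b, A c a b • ((Matrix.of fun i j => A a i j) * diagonal d *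
            (Matrix.of fun i j => A b i j))) * X c)
        - 4 * trace (((Matrix.of fun i j => A c i j) * diagonal d
            + diagonal d * (Matrix.of fun i j => A c i j)) * X c)
        - trace (X c * X c)
        + ∑ a, trace ((Matrix.of fun i j => A a i j) * X c *
            ((Matrix.of fun i j => A a i j) * X c)))
      - trace (diagonal d * diagonal d : M n) := by
  set B : Fin n → M n := fun a => Matrix.of fun i j => A a i j with hB
  have hBT : ∀ a, (B a)ᵀ = B a := fun a => by
    ext i j
    simp only [hB, transpose_apply, of_apply]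
    exact hA.2 a j i
  have hcp : ∀ Y : M n, |∑ a, (B a * Y * B a * Yᵀ).trace| ≤ (Y * Yᵀ).trace := by
    intro Y
    have := Vale.Agent.P254.H660.cp_bound (fun _ : Fin n => (1 : ℝ)) (fun _ => zero_le_one) B hBT
      (fun D hD => by simpa only [one_mul] using hspec D hD) Y
    simpa only [one_mul] using this
  have hK4 := Vale.Agent.P254.H46.K4_le A hA d hd hfix hcp
  refine ⟨fun c => vel d (B c), fun c => vel_symm d (hBT c), ?_⟩
  refine AL0 B hBT d hd hfix (fun X hX => ?_) ?_ C hC
  · have := (abs_le.mp (hcp X)).2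
    rw [hX] at this
    simpa only [Matrix.mul_assoc] using this
  · refine le_trans (le_trans (le_of_eq ?_) (le_abs_self _)) hK4
    refine sum_congr rfl fun e _ => sum_congr rfl fun i _ => sum_congr rfl fun j _ => ?_
    simp only [hB, of_apply, hm]
    ring

end Vale.Agent.P254.H374
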